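import Mathlib

/-!
P202: Lech's inequality when the closed fibre is long compared to its Loewy length.
-/

namespace Vale.Agent.Results.P202.LoewyFibre

open Filter Topology IsLocalRing ENNReal Nat TensorProduct

/-- `e` is the Hilbert-Samuel multiplicity of the local ring `A`: with `d` the Krull dimension of
`A`, the limit of `d! ℓ(A/𝔞^N) / N^d` is `e` (in `[0, ∞]`). -/
def IsMultiplicity (A : Type*) [CommRing A] [IsLocalRing A] (e : ℝ≥0∞) : Prop :=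
  ∃ d : ℕ, ringKrullDim A = d ∧
    Tendsto (fun N : ℕ => (d ! : ℝ≥0∞) *
      ((Module.length A (A ⧸ maximalIdeal A ^ N) : ℕ∞) : ℝ≥0∞) / (N : ℝ≥0∞) ^ d) atTop (𝓝 e)

theorem len_le {R S : Type*} [CommRing R] [CommRing S] [IsLocalRing R] [IsLocalRing S]
    [Algebra R S] [IsLocalHom (algebraMap R S)] [Module.Flat R S] (k N : ℕ)
    (hk : maximalIdeal S ^ k ≤ (maximalIdeal R).map (algebraMap R S)) :
    Module.length R (R ⧸ maximalIdeal R ^ N)
        * Module.length S (S ⧸ (maximalIdeal R).map (algebraMap R S))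
      ≤ Module.length S (S ⧸ maximalIdeal S ^ (k * N)) := by
  rw [← IsLocalRing.length_baseChange R S (R ⧸ maximalIdeal R ^ N),
    ← (Algebra.TensorProduct.quotIdealMapEquivTensorQuot S
      (maximalIdeal R ^ N)).toLinearEquiv.length_eq]
  have hle : maximalIdeal S ^ (k * N) ≤ (maximalIdeal R ^ N).map (algebraMap R S) := by
    rw [pow_mul, Ideal.map_pow]
    exact Ideal.pow_right_mono hk N
  exact Module.length_le_of_surjective (Submodule.factor hle) (Submodule.factor_surjective hle)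

theorem main {R S : Type*} [CommRing R] [CommRing S] [IsLocalRing R] [IsLocalRing S]
    [Algebra R S] [IsLocalHom (algebraMap R S)] [Module.Flat R S] {d : ℕ} {eR eS : ℝ≥0∞}
    (hR : Tendsto (fun N : ℕ => (d ! : ℝ≥0∞) *
      ((Module.length R (R ⧸ maximalIdeal R ^ N) : ℕ∞) : ℝ≥0∞) / (N : ℝ≥0∞) ^ d) atTop (𝓝 eR))
    (hS : Tendsto (fun N : ℕ => (d ! : ℝ≥0∞) *
      ((Module.length S (S ⧸ maximalIdeal S ^ N) : ℕ∞) : ℝ≥0∞) / (N : ℝ≥0∞) ^ d) atTop (𝓝 eS))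
    (k : ℕ) (hk0 : k ≠ 0)
    (hk : maximalIdeal S ^ k ≤ (maximalIdeal R).map (algebraMap R S)) :
    ((Module.length S (S ⧸ (maximalIdeal R).map (algebraMap R S)) : ℕ∞) : ℝ≥0∞) * eR
      ≤ (k : ℝ≥0∞) ^ d * eS := by
  by_cases he : eR = 0
  · rw [he, mul_zero]; exact bot_le
  have h1 := ENNReal.Tendsto.const_mul
    (a := ((Module.length S (S ⧸ (maximalIdeal R).map (algebraMap R S)) : ℕ∞) : ℝ≥0∞))
    hR (Or.inl he)
  have hkN : Tendsto (fun N : ℕ => k * N) atTop atTop :=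
    tendsto_id.const_mul_atTop' (Nat.pos_of_ne_zero hk0)
  have h2 := ENNReal.Tendsto.const_mul (a := (k : ℝ≥0∞) ^ d) (hS.comp hkN)
    (Or.inr (ENNReal.pow_ne_top (ENNReal.natCast_ne_top k)))
  refine le_of_tendsto_of_tendsto h1 h2 ?_
  filter_upwards [eventually_gt_atTop 0] with N hN
  simp only [Function.comp]
  have hlen := len_le (R := R) (S := S) k N hk
  have hlen' : ((Module.length R (R ⧸ maximalIdeal R ^ N) : ℕ∞) : ℝ≥0∞)
        * ((Module.length S (S ⧸ (maximalIdeal R).map (algebraMap R S)) : ℕ∞) : ℝ≥0∞)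
      ≤ ((Module.length S (S ⧸ maximalIdeal S ^ (k * N)) : ℕ∞) : ℝ≥0∞) := by
    rw [← ENat.toENNReal_mul]
    exact ENat.toENNReal_le.2 hlen
  have hk1 : (k : ℝ≥0∞) ^ d ≠ 0 := pow_ne_zero _ (by exact_mod_cast hk0)
  have hk2 : (k : ℝ≥0∞) ^ d ≠ ∞ := ENNReal.pow_ne_top (ENNReal.natCast_ne_top k)
  have e1 : (k : ℝ≥0∞) ^ d * ((d ! : ℝ≥0∞) *
      ((Module.length S (S ⧸ maximalIdeal S ^ (k * N)) : ℕ∞) : ℝ≥0∞) / ((k * N : ℕ) : ℝ≥0∞) ^ d)
      = (d ! : ℝ≥0∞) *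
      ((Module.length S (S ⧸ maximalIdeal S ^ (k * N)) : ℕ∞) : ℝ≥0∞) / (N : ℝ≥0∞) ^ d := by
    rw [Nat.cast_mul, mul_pow, ← mul_div_assoc, ENNReal.mul_div_mul_left _ _ hk1 hk2]
  rw [e1, ← mul_div_assoc]
  refine ENNReal.div_le_div_right ?_ _
  calc ((Module.length S (S ⧸ (maximalIdeal R).map (algebraMap R S)) : ℕ∞) : ℝ≥0∞)
        * ((d ! : ℝ≥0∞) * ((Module.length R (R ⧸ maximalIdeal R ^ N) : ℕ∞) : ℝ≥0∞))
      = (d ! : ℝ≥0∞) * (((Module.length R (R ⧸ maximalIdeal R ^ N) : ℕ∞) : ℝ≥0∞)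
        * ((Module.length S (S ⧸ (maximalIdeal R).map (algebraMap R S)) : ℕ∞) : ℝ≥0∞)) := by ring
    _ ≤ _ := by gcongr

/-- Let `(R, 𝔪) → (S, 𝔫)` be a flat local homomorphism of Noetherian local rings of the same
dimension `d`. If `𝔫^k ⊆ 𝔪S`, then `ℓ(S/𝔪S) e(R) ≤ k^d e(S)`; so Lech's inequality `e(R) ≤ e(S)`
holds whenever moreover `k^d ≤ ℓ(S/𝔪S)`. -/
theorem result (R S : Type*) [CommRing R] [CommRing S] [IsLocalRing R] [IsLocalRing S]
    [IsNoetherianRing R] [IsNoetherianRing S] [Algebra R S] [IsLocalHom (algebraMap R S)]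
    [Module.Flat R S] (hdim : ringKrullDim R = ringKrullDim S) (d : ℕ) (hd : ringKrullDim R = d)
    (eR eS : ℝ≥0∞) (hR : IsMultiplicity R eR) (hS : IsMultiplicity S eS)
    (k : ℕ) (hk : maximalIdeal S ^ k ≤ (maximalIdeal R).map (algebraMap R S)) :
    ((Module.length S (S ⧸ (maximalIdeal R).map (algebraMap R S)) : ℕ∞) : ℝ≥0∞) * eR
        ≤ (k : ℝ≥0∞) ^ d * eS ∧
    ((k : ℕ∞) ^ d ≤ Module.length S (S ⧸ (maximalIdeal R).map (algebraMap R S)) → eR ≤ eS) := by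
  obtain ⟨d1, hd1, hR⟩ := hR
  obtain ⟨d2, hd2, hS⟩ := hS
  have e1 : d1 = d := by
    rw [hd] at hd1
    exact_mod_cast hd1.symm
  have e2 : d2 = d := by
    rw [← hdim, hd] at hd2
    exact_mod_cast hd2.symm
  subst e1
  subst e2
  have hk0 : k ≠ 0 := by
    rintro rfl
    have h1 : (1 : S) ∈ (maximalIdeal R).map (algebraMap R S) := hk (by simp)
    have h0 : IsLocalHom (algebraMap R S) ↔
        (maximalIdeal R).map (algebraMap R S) ≤ maximalIdeal S :=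
      (IsLocalRing.local_hom_TFAE (algebraMap R S)).out 0 2
    have h2 : (maximalIdeal R).map (algebraMap R S) ≤ maximalIdeal S := h0.1 ‹_›
    exact (IsLocalRing.maximalIdeal.isMaximal S).ne_top ((Ideal.eq_top_iff_one _).2 (h2 h1))
  have hm := main hR hS k hk0 hk
  refine ⟨hm, fun hL => ?_⟩
  have hk1 : (k : ℝ≥0∞) ^ d2 ≠ 0 := pow_ne_zero _ (by exact_mod_cast hk0)
  have hk2 : (k : ℝ≥0∞) ^ d2 ≠ ∞ := ENNReal.pow_ne_top (ENNReal.natCast_ne_top k)
  have hL' : (k : ℝ≥0∞) ^ d2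
      ≤ ((Module.length S (S ⧸ (maximalIdeal R).map (algebraMap R S)) : ℕ∞) : ℝ≥0∞) := by
    have := ENat.toENNReal_le.2 hL
    simpa using this
  have h3 : (k : ℝ≥0∞) ^ d2 * eR ≤ (k : ℝ≥0∞) ^ d2 * eS :=
    (mul_le_mul_left hL' eR).trans hm
  exact (ENNReal.mul_le_mul_iff_right hk1 hk2).1 h3

end Vale.Agent.Results.P202.LoewyFibre
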